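import Vale.Agent.P290.H726.Dens

/-!
# P290, package F2-POS: three integral vectors spanning a positive definite space
-/

open Filter Topology

namespace Vale.Agent.P290.H103

open Vale.Agent.P290.H726

variable {ι : Type*} [Fintype ι]

theorem bil_re_im (M : Matrix ι ι ℤ) (x y : ι → ℂ) :
    bil M x y = ((bil M (fun i => (x i).re) (fun i => (y i).re) -
      bil M (fun i => (x i).im) (fun i => (y i).im) : ℝ) : ℂ) +
      ((bil M (fun i => (x i).re) (fun i => (y i).im) +
      bil M (fun i => (x i).im) (fun i => (y i).re) : ℝ) : ℂ) * Complex.I := by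
  have h : ∀ z : ι → ℂ, z = (fun i => (((z i).re : ℝ) : ℂ)) + Complex.I • fun i => (((z i).im : ℝ) : ℂ) := by
    intro z
    funext i
    simp only [Pi.add_apply, Pi.smul_apply, smul_eq_mul]
    rw [mul_comm, Complex.re_add_im]
  have h2 : ∀ a b : ι → ℝ, bil M (fun i => ((a i : ℝ) : ℂ)) (fun i => ((b i : ℝ) : ℂ)) =
      ((bil M a b : ℝ) : ℂ) := fun a b => bil_map M Complex.ofRealHom a b
  conv_lhs => rw [h x, h y]
  rw [bil_add_left, bil_add_right, bil_add_right, bil_smul_left, bil_smul_left, bil_smul_right,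
    bil_smul_right, h2, h2, h2, h2]
  push_cast
  linear_combination ((bil M (fun i => (x i).im) (fun i => (y i).im) : ℝ) : ℂ) * Complex.I_mul_I

/-- approximation of a real positive definite diagonal triple by integral vectors -/
theorem exists_int_of_real (M : Matrix ι ι ℤ) (U : Fin 3 → ι → ℝ) {m : ℝ} (hm : 0 < m)
    (h1 : ∀ k, m ≤ bil M (U k) (U k)) (h2 : ∀ k l, k ≠ l → bil M (U k) (U l) = 0) :
    ∃ x : Fin 3 → ι → ℤ, ∀ a : Fin 3 → ℝ, a ≠ 0 →
      0 < ∑ k, ∑ l, a k * a l * ((bil M (x k) (x l) : ℤ) : ℝ) := by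
  have ht : ∀ r : ℝ, Tendsto (fun N : ℕ => ((⌊(N : ℝ) * r⌋ : ℤ) : ℝ) / (N : ℝ)) atTop (𝓝 r) := by
    intro r
    have h3 : Tendsto (fun N : ℕ => r - 1 / (N : ℝ)) atTop (𝓝 r) := by
      simpa using tendsto_const_nhds.sub (tendsto_one_div_atTop_nhds_zero_nat (𝕜 := ℝ))
    refine tendsto_of_tendsto_of_tendsto_of_le_of_le' h3 tendsto_const_nhds ?_ ?_
    · filter_upwards [eventually_gt_atTop 0] with N hN
      have hN' : (0 : ℝ) < N := Nat.cast_pos.2 hN
      rw [le_div_iff₀ hN', sub_mul, one_div, inv_mul_cancel₀ hN'.ne']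
      have := Int.sub_one_lt_floor ((N : ℝ) * r)
      linarith
    · filter_upwards [eventually_gt_atTop 0] with N hN
      have hN' : (0 : ℝ) < N := Nat.cast_pos.2 hN
      rw [div_le_iff₀ hN']
      have := Int.floor_le ((N : ℝ) * r)
      linarith
  have hG : ∀ k l, Tendsto (fun N : ℕ => bil M (fun i => ((⌊(N : ℝ) * U k i⌋ : ℤ) : ℝ) / (N : ℝ))
      (fun i => ((⌊(N : ℝ) * U l i⌋ : ℤ) : ℝ) / (N : ℝ))) atTop (𝓝 (bil M (U k) (U l))) := by
    intro k l
    unfold bil
    exact tendsto_finsetSum _ fun i _ => tendsto_finsetSum _ fun j _ =>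
      ((tendsto_const_nhds.mul (ht (U k i))).mul (ht (U l j)))
  have hev : ∀ᶠ N : ℕ in atTop, ∀ k l, |bil M (fun i => ((⌊(N : ℝ) * U k i⌋ : ℤ) : ℝ) / (N : ℝ))
      (fun i => ((⌊(N : ℝ) * U l i⌋ : ℤ) : ℝ) / (N : ℝ)) - bil M (U k) (U l)| < m / 4 := by
    rw [eventually_all]
    intro k
    rw [eventually_all]
    intro l
    have := (Metric.tendsto_nhds.1 (hG k l)) (m / 4) (by linarith)
    simpa only [Real.dist_eq] using this
  obtain ⟨N, hN, hN0⟩ := (hev.and (eventually_gt_atTop 0)).exists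
  have hN' : (0 : ℝ) < N := Nat.cast_pos.2 hN0
  refine ⟨fun k i => ⌊(N : ℝ) * U k i⌋, fun a ha => ?_⟩
  set G : Fin 3 → Fin 3 → ℝ := fun k l =>
    bil M (fun i => ((⌊(N : ℝ) * U k i⌋ : ℤ) : ℝ) / (N : ℝ))
      (fun i => ((⌊(N : ℝ) * U l i⌋ : ℤ) : ℝ) / (N : ℝ)) with hGdef
  have hg : ∀ k l, ((bil M (fun i => ⌊(N : ℝ) * U k i⌋) (fun i => ⌊(N : ℝ) * U l i⌋) : ℤ) : ℝ) =
      (N : ℝ) ^ 2 * G k l := by
    intro k l
    rw [← bil_intCast_real, hGdef]
    have e : ∀ k, (fun i => ((⌊(N : ℝ) * U k i⌋ : ℤ) : ℝ)) =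
        (N : ℝ) • fun i => ((⌊(N : ℝ) * U k i⌋ : ℤ) : ℝ) / (N : ℝ) := by
      intro k
      funext i
      simp only [Pi.smul_apply, smul_eq_mul]
      field_simp
    conv_lhs => rw [e k, e l]
    rw [bil_smul_left, bil_smul_right]
    ring
  have hsum : ∑ k, ∑ l, a k * a l *
      ((bil M (fun i => ⌊(N : ℝ) * U k i⌋) (fun i => ⌊(N : ℝ) * U l i⌋) : ℤ) : ℝ) =
      (N : ℝ) ^ 2 * ∑ k, ∑ l, a k * a l * G k l := by
    rw [Finset.mul_sum]
    refine Finset.sum_congr rfl fun k _ => ?_
    rw [Finset.mul_sum]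
    refine Finset.sum_congr rfl fun l _ => ?_
    rw [hg]; ring
  rw [hsum]
  refine mul_pos (by positivity) ?_
  have hd : ∀ k, m - m / 4 < G k k := by
    intro k
    have h3 := (abs_lt.1 (hN k k)).1
    have h4 := h1 k
    show _ < bil M _ _
    linarith
  have ho : ∀ k l, k ≠ l → |G k l| < m / 4 := by
    intro k l hkl
    have h3 := hN k l
    rwa [h2 k l hkl, sub_zero] at h3
  have hpos : 0 < a 0 ^ 2 + a 1 ^ 2 + a 2 ^ 2 := by
    by_contra hcon
    apply ha
    have h0 := sq_nonneg (a 0)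
    have h1' := sq_nonneg (a 1)
    have h2' := sq_nonneg (a 2)
    funext k
    have e0 : a 0 ^ 2 = 0 := by linarith
    have e1 : a 1 ^ 2 = 0 := by linarith
    have e2 : a 2 ^ 2 = 0 := by linarith
    fin_cases k
    · exact pow_eq_zero_iff two_ne_zero |>.1 e0
    · exact pow_eq_zero_iff two_ne_zero |>.1 e1
    · exact pow_eq_zero_iff two_ne_zero |>.1 e2
  have hoff : ∀ k l, k ≠ l → -((a k ^ 2 + a l ^ 2) / 2 * (m / 4)) ≤ a k * a l * G k l := by
    intro k l hkl
    have h3 : |a k * a l * G k l| ≤ (a k ^ 2 + a l ^ 2) / 2 * (m / 4) := by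
      rw [abs_mul]
      refine mul_le_mul ?_ (ho k l hkl).le (abs_nonneg _) (by positivity)
      rw [abs_le]
      constructor <;> nlinarith [sq_nonneg (a k - a l), sq_nonneg (a k + a l)]
    linarith [neg_abs_le (a k * a l * G k l)]
  have hdiag : ∀ k, a k ^ 2 * (m - m / 4) ≤ a k * a k * G k k := by
    intro k
    rw [← sq]
    exact mul_le_mul_of_nonneg_left (hd k).le (sq_nonneg _)
  simp only [Fin.sum_univ_three]
  have q01 := hoff 0 1 (by decide)
  have q02 := hoff 0 2 (by decide)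
  have q10 := hoff 1 0 (by decide)
  have q12 := hoff 1 2 (by decide)
  have q20 := hoff 2 0 (by decide)
  have q21 := hoff 2 1 (by decide)
  have d0 := hdiag 0
  have d1 := hdiag 1
  have d2 := hdiag 2
  have := mul_pos hm hpos
  nlinarith

/-- **F2-POS.** -/
theorem exists_pos [DecidableEq ι] (M : Matrix ι ι ℤ) (hM : ∀ i j, M i j = M j i)
    (hnd : ∀ x : ι → ℤ, (∀ y : ι → ℤ, bil M x y = 0) → x = 0)
    (e : ι → ℤ) (he : e ≠ 0) (hee : bil M e e = 0) (c : ι → ℂ) (hcc : bil M c c = 0)
    (hpos : 0 < (bil M c (fun i => (starRingEnd ℂ) (c i))).re)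
    (hec : bil M (fun i => ((e i : ℤ) : ℂ)) c = 0) :
    ∃ x : Fin 3 → ι → ℤ, ∀ a : Fin 3 → ℝ, a ≠ 0 →
      0 < ∑ k, ∑ l, a k * a l * ((bil M (x k) (x l) : ℤ) : ℝ) := by
  set u : ι → ℝ := fun i => (c i).re with hu
  set v : ι → ℝ := fun i => (c i).im with hv
  set E : ι → ℝ := fun i => ((e i : ℤ) : ℝ) with hE
  have h1 := bil_re_im M c c
  rw [hcc] at h1
  have r1 : bil M u u - bil M v v = 0 := by
    have := congrArg Complex.re h1
    simpa using this.symm
  have r2 : bil M u v + bil M v u = 0 := by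
    have := congrArg Complex.im h1
    simpa using this.symm
  have r2' : bil M u v = 0 := by
    rw [bil_symm M hM v u] at r2; linarith
  have r3 : 0 < bil M u u + bil M v v := by
    have h3 := bil_re_im M c (fun i => (starRingEnd ℂ) (c i))
    rw [h3] at hpos
    have e1 : (fun i => ((starRingEnd ℂ) (c i)).re) = u := by funext i; simp [hu]
    have e2 : (fun i => ((starRingEnd ℂ) (c i)).im) = -v := by funext i; simp [hv]
    rw [e1, e2, bil_neg_right] at hpos
    simpa using hpos
  have huu : 0 < bil M u u := by linarith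
  have hvv : 0 < bil M v v := by linarith
  have h4 := bil_re_im M (fun i => ((e i : ℤ) : ℂ)) c
  rw [hec] at h4
  have e3 : (fun i => (((e i : ℤ) : ℂ)).re) = E := by funext i; simp [hE]
  have e4 : (fun i => (((e i : ℤ) : ℂ)).im) = 0 := by funext i; simp
  rw [e3, e4, bil_zero_left, bil_zero_left] at h4
  have r4 : bil M E u = 0 := by
    have := congrArg Complex.re h4
    simpa using this.symm
  have r5 : bil M E v = 0 := by
    have := congrArg Complex.im h4
    simpa using this.symm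
  have hE0 : E ≠ 0 := by
    intro h
    apply he
    funext i
    have := congrFun h i
    simpa [hE] using this
  have hEE : bil M E E = 0 := by
    rw [hE, bil_intCast_real, hee, Int.cast_zero]
  obtain ⟨y, hy⟩ : ∃ y : ι → ℝ, bil M E y ≠ 0 := by
    by_contra hcon
    push Not at hcon
    exact hE0 (nondeg_real M hM hnd E hcon)
  set y' : ι → ℝ := y - (bil M y u / bil M u u) • u - (bil M y v / bil M v v) • v with hy'
  have s1 : bil M y' u = 0 := by
    rw [hy', bil_sub_left, bil_sub_left, bil_smul_left, bil_smul_left, bil_symm M hM v u, r2']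
    field_simp
    ring
  have s2 : bil M y' v = 0 := by
    rw [hy', bil_sub_left, bil_sub_left, bil_smul_left, bil_smul_left, r2']
    field_simp
    ring
  have s3 : bil M E y' = bil M E y := by
    rw [hy', bil_sub_right, bil_sub_right, bil_smul_right, bil_smul_right, r4, r5]
    ring
  set t : ℝ := (1 - bil M y' y') / (2 * bil M E y) with ht
  set w : ι → ℝ := y' + t • E with hw
  have t1 : bil M w u = 0 := by
    rw [hw, bil_add_left, bil_smul_left, s1, r4]; ring
  have t2 : bil M w v = 0 := by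
    rw [hw, bil_add_left, bil_smul_left, s2, r5]; ring
  have t3 : bil M w w = 1 := by
    rw [hw, bil_add_left, bil_add_right, bil_add_right, bil_smul_left, bil_smul_left,
      bil_smul_right, bil_smul_right, hEE, bil_symm M hM y' E, s3, ht]
    field_simp
    ring
  refine exists_int_of_real M ![u, v, w] (m := min (bil M u u) 1) (lt_min huu one_pos) ?_ ?_
  · intro k
    fin_cases k
    · exact min_le_left _ _
    · show _ ≤ bil M v v
      rw [show bil M v v = bil M u u by linarith]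
      exact min_le_left _ _
    · show _ ≤ bil M w w
      rw [t3]
      exact min_le_right _ _
  · have r2'' : bil M v u = 0 := by rw [bil_symm M hM, r2']
    have t1' : bil M u w = 0 := by rw [bil_symm M hM, t1]
    have t2' : bil M v w = 0 := by rw [bil_symm M hM, t2]
    intro k l hkl
    fin_cases k <;> fin_cases l <;> first | exact absurd rfl hkl | assumption

end Vale.Agent.P290.H103
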